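import Vale.Agent.Lib.P329.H26.Known

/-!
# The two-level chain automaton

`D` is a set of clock letters, `E` a disjoint set of letters acting only at multiples of `M`.
-/

namespace Vale.Agent.Lib.P329.H26

open Classical

universe u

variable {α : Type u}

/-- Number of letters from `D` in a word. -/
noncomputable def clock (D : Set α) : List α → ℕ
  | [] => 0
  | a :: w => (if a ∈ D then 1 else 0) + clock D w

theorem clock_append (D : Set α) (u v : List α) : clock D (u ++ v) = clock D u + clock D v := by
  induction u with
  | nil => simp [clock]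
  | cons a u ih => simp only [List.cons_append, clock, ih]; omega

/-- Number of letters from `E` read when the clock, started at `t`, is a multiple of `M`. -/
noncomputable def cnt (D E : Set α) (M : ℕ) : ℕ → List α → ℕ
  | _, [] => 0
  | t, a :: w => (if a ∈ E ∧ M ∣ t then 1 else 0) + cnt D E M (t + if a ∈ D then 1 else 0) w

theorem cnt_snoc (D E : Set α) (M t : ℕ) (w : List α) (a : α) :
    cnt D E M t (w ++ [a]) = cnt D E M t w + if a ∈ E ∧ M ∣ t + clock D w then 1 else 0 := by
  induction w generalizing t with
  | nil => simp [cnt, clock]
  | cons b w ih =>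
    simp only [List.cons_append, cnt, ih, clock]
    have : t + (if b ∈ D then 1 else 0) + clock D w = t + ((if b ∈ D then 1 else 0) + clock D w) := by
      omega
    rw [this, Nat.add_assoc]
    congr!

theorem cnt_add_mod (D E : Set α) (M t : ℕ) (w : List α) :
    cnt D E M (t + M) w = cnt D E M t w := by
  induction w generalizing t with
  | nil => rfl
  | cons a w ih =>
    simp only [cnt]
    have h1 : M ∣ t + M ↔ M ∣ t := by simp
    have h2 : t + M + (if a ∈ D then 1 else 0) = t + (if a ∈ D then 1 else 0) + M := by omega
    rw [h2, ih]
    simp only [h1]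

/-- The chain automaton on `ZMod (M * n)`. -/
noncomputable def chainStep (D E : Set α) (M n : ℕ) (a : α) (x : ZMod (M * n)) : ZMod (M * n) :=
  if a ∈ D then x + 1 else if a ∈ E ∧ M ∣ x.val then x + (M : ZMod (M * n)) else x

section

variable {D E : Set α} {M n : ℕ}

theorem chainStep_mono [NeZero (M * n)] (hM : 0 < M) :
    MonoHub (chainStep D E M n) (0 : ZMod (M * n)) (fun x => x.val) := by
  intro x hx a
  unfold chainStep
  by_cases ha : a ∈ D
  · simp only [ha, if_true]
    right
    by_cases h1 : x + 1 = 0
    · exact Or.inl h1
    · right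
      have hlt := ZMod.val_lt x
      by_cases h2 : x.val + 1 < M * n
      · have : (x + 1).val = x.val + 1 := by
          have hone : (1 : ZMod (M * n)).val = 1 % (M * n) := ZMod.val_one_eq_one_mod (M * n)
          rw [ZMod.val_add, hone]
          have : M * n ≠ 1 → 1 % (M * n) = 1 := fun h =>
            Nat.mod_eq_of_lt (by have := NeZero.pos (M * n); omega)
          by_cases h3 : M * n = 1
          · omega
          · rw [this h3]; exact Nat.mod_eq_of_lt h2
        omega
      · exfalso
        apply h1
        have : x.val + 1 = M * n := by omega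
        have h5 : ((x.val + 1 : ℕ) : ZMod (M * n)) = 0 := by
          rw [this]; exact ZMod.natCast_self _
        have h6 : ((x.val : ℕ) : ZMod (M * n)) = x := ZMod.natCast_zmod_val x
        push_cast at h5
        rwa [h6] at h5
  · simp only [ha, if_false]
    by_cases hb : a ∈ E ∧ M ∣ x.val
    · simp only [hb, and_self, if_true]
      right
      by_cases h1 : x + (M : ZMod (M * n)) = 0
      · exact Or.inl h1
      · right
        have hlt := ZMod.val_lt x
        obtain ⟨k, hk⟩ := hb.2
        have hx0 : 0 < n := Nat.pos_of_ne_zero (by
          rintro rfl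
          exact (NeZero.ne (M * 0)) (by simp))
        have hk' : k < n := by
          by_contra h
          push Not at h
          have : M * n ≤ M * k := Nat.mul_le_mul_left _ h
          omega
        have hle : x.val + M ≤ M * n := by
          rw [hk]
          have : M * (k + 1) ≤ M * n := Nat.mul_le_mul_left _ hk'
          calc M * k + M = M * (k + 1) := by ring
            _ ≤ M * n := this
        by_cases h2 : x.val + M < M * n
        · have : (x + (M : ZMod (M * n))).val = x.val + M := by
            have hMval : ((M : ℕ) : ZMod (M * n)).val = M % (M * n) := ZMod.val_natCast _ _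
            rw [ZMod.val_add, hMval, Nat.add_mod_mod]
            exact Nat.mod_eq_of_lt h2
          have : x.val < (x + (M : ZMod (M * n))).val := by omega
          exact this
        · exfalso
          apply h1
          have : x.val + M = M * n := by omega
          have h5 : ((x.val + M : ℕ) : ZMod (M * n)) = 0 := by
            rw [this]; exact ZMod.natCast_self _
          have h6 : ((x.val : ℕ) : ZMod (M * n)) = x := ZMod.natCast_zmod_val x
          push_cast at h5
          rwa [h6] at h5
    · simp [hb]

theorem dvd_val_iff {M n : ℕ} [NeZero (M * n)] (t : ℕ) :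
    M ∣ ((t : ℕ) : ZMod (M * n)).val ↔ M ∣ t := by
  rw [ZMod.val_natCast]
  constructor
  · intro h
    have h1 : t = (M * n) * (t / (M * n)) + t % (M * n) := (Nat.div_add_mod _ _).symm
    rw [h1]
    exact dvd_add (Dvd.dvd.mul_right (Dvd.intro _ rfl) _) h
  · intro h
    have h1 : t % (M * n) = t - (M * n) * (t / (M * n)) := by
      have := Nat.div_add_mod t (M * n)
      omega
    rw [h1]
    exact Nat.dvd_sub h (Dvd.dvd.mul_right (Dvd.intro _ rfl) _)

/-- The run of the chain automaton in closed form. -/
theorem run_chain [NeZero (M * n)] (hDE : ∀ a, a ∈ E → a ∉ D) (t : ℕ) (w : List α) :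
    run (chainStep D E M n) ((t : ℕ) : ZMod (M * n)) w =
      ((t + clock D w + M * cnt D E M t w : ℕ) : ZMod (M * n)) := by
  induction w generalizing t with
  | nil => simp [clock, cnt]
  | cons a w ih =>
    rw [run_cons]
    by_cases ha : a ∈ D
    · have hE : a ∉ E := fun h => hDE a h ha
      have : chainStep D E M n a ((t : ℕ) : ZMod (M * n)) = ((t + 1 : ℕ) : ZMod (M * n)) := by
        simp [chainStep, ha]
      rw [this, ih]
      simp only [clock, cnt, ha, hE, if_true, false_and, if_false]
      congr 1
      ring
    · by_cases hb : a ∈ E ∧ M ∣ t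
      · have : chainStep D E M n a ((t : ℕ) : ZMod (M * n)) = ((t + M : ℕ) : ZMod (M * n)) := by
          have h2 : M ∣ ((t : ℕ) : ZMod (M * n)).val := (dvd_val_iff t).mpr hb.2
          unfold chainStep
          rw [if_neg ha, if_pos ⟨hb.1, h2⟩]
          push_cast
          rfl
        rw [this, ih, cnt_add_mod]
        simp only [clock, cnt, ha, hb, if_false, and_self, if_true]
        congr 1
        ring_nf
      · have : chainStep D E M n a ((t : ℕ) : ZMod (M * n)) = ((t : ℕ) : ZMod (M * n)) := by
          have h2 : ¬ (a ∈ E ∧ M ∣ ((t : ℕ) : ZMod (M * n)).val) := by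
            rintro ⟨h3, h4⟩
            exact hb ⟨h3, (dvd_val_iff t).mp h4⟩
          unfold chainStep
          rw [if_neg ha, if_neg h2]
        rw [this, ih]
        simp only [clock, cnt, ha, hb, if_false, Nat.zero_add, Nat.add_zero]

theorem cnt_empty (D : Set α) (M t : ℕ) (w : List α) : cnt D ∅ M t w = 0 := by
  induction w generalizing t with
  | nil => rfl
  | cons a w ih => simp [cnt, ih]

/-- Clock residues are known. -/
theorem clock_Kn [Finite α] (D : Set α) : Kn (clock D) := by
  intro n hn
  have h0 : NeZero (1 * n) := ⟨by simpa using hn.ne'⟩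
  have : Finite (ZMod (1 * n)) := inferInstance
  have hmono := chainStep_mono (D := D) (E := ∅) (M := 1) (n := n) Nat.one_pos
  have h1 : Known (fun w => run (chainStep D ∅ 1 n) ((0 : ℕ) : ZMod (1 * n)) w) := fun b =>
    run_GSH hmono _ b
  have h2 := h1.comp (fun x : ZMod (1 * n) => ((x.val : ℕ) : ZMod n))
  convert h2 using 2 with w
  rw [run_chain (fun a ha => absurd ha (by simp)), ZMod.val_natCast, cnt_empty]
  simp

/-- Counts of letters of `E` read at clock values divisible by `M` are known, for any modulus. -/
theorem cnt_Kn [Finite α] {D E : Set α} (hDE : ∀ a, a ∈ E → a ∉ D) {M : ℕ} (hM : 0 < M) (t : ℕ) :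
    Kn (cnt D E M t) := by
  intro n hn
  have h0 : NeZero (M * n) := ⟨(Nat.mul_pos hM hn).ne'⟩
  have : Finite (ZMod (M * n)) := inferInstance
  have hmono := chainStep_mono (D := D) (E := E) (M := M) (n := n) hM
  have h1 : Known (fun w => run (chainStep D E M n) ((t : ℕ) : ZMod (M * n)) w) := fun b =>
    run_GSH hmono _ b
  have h2 : Known (fun w => ((clock D w : ℕ) : ZMod (M * n))) :=
    clock_Kn D (M * n) (Nat.mul_pos hM hn)
  have h3 := h1.map₂ h2 (fun x y => ((((x - (t : ZMod (M * n)) - y).val / M : ℕ)) : ZMod n))
  convert h3 using 2 with w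
  rw [run_chain hDE]
  have : ((t + clock D w + M * cnt D E M t w : ℕ) : ZMod (M * n)) - (t : ZMod (M * n)) -
      ((clock D w : ℕ) : ZMod (M * n)) = ((M * cnt D E M t w : ℕ) : ZMod (M * n)) := by
    push_cast
    ring
  rw [this, ZMod.val_natCast, Nat.mul_mod_mul_left, Nat.mul_div_cancel_left _ hM]
  simp

end

/-- Sum over the occurrences of the letter `c` of a function of the prefix before them;
auxiliary version with the prefix read so far as a parameter. -/
noncomputable def psumAux (e : List α → ℕ) (c : α) (pre : List α) : List α → ℕ
  | [] => 0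
  | a :: w => (if a = c then e pre else 0) + psumAux e c (pre ++ [a]) w

/-- Sum over the occurrences of the letter `c` in a word of `e` of the prefix before them. -/
noncomputable def psum (e : List α → ℕ) (c : α) (w : List α) : ℕ := psumAux e c [] w

theorem psumAux_snoc (e : List α → ℕ) (c : α) (pre w : List α) (a : α) :
    psumAux e c pre (w ++ [a]) = psumAux e c pre w + if a = c then e (pre ++ w) else 0 := by
  induction w generalizing pre with
  | nil => simp [psumAux]
  | cons b w ih =>
    simp only [List.cons_append, psumAux, ih, List.append_assoc, List.nil_append]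
    omega

@[simp] theorem psum_nil (e : List α → ℕ) (c : α) : psum e c [] = 0 := rfl

theorem psum_snoc (e : List α → ℕ) (c : α) (w : List α) (a : α) :
    psum e c (w ++ [a]) = psum e c w + if a = c then e w else 0 := by
  simp [psum, psumAux_snoc]

theorem periodic_mod {v : ℕ → ℕ} {n M : ℕ} (h : ∀ x, ((v (x + M) : ℕ) : ZMod n) = v x) (x : ℕ) :
    ((v x : ℕ) : ZMod n) = v (x % M) := by
  have h1 : ∀ k y, ((v (y + M * k) : ℕ) : ZMod n) = v y := by
    intro k
    induction k with
    | zero => simp
    | succ k ih =>
      intro y
      have : y + M * (k + 1) = (y + M * k) + M := by ring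
      rw [this, h, ih]
  have h2 := h1 (x / M) (x % M)
  rw [Nat.mod_add_div] at h2
  exact h2

/-- Weighted counts of a letter outside `D`, with a weight periodic in the clock. -/
theorem psum_clock_Kn [Finite α] {D : Set α} {c : α} (hc : c ∉ D) {v : ℕ → ℕ}
    (hper : ∀ n, 0 < n → ∃ M, 0 < M ∧ ∀ x, ((v (x + M) : ℕ) : ZMod n) = v x) :
    Kn (psum (fun u => v (clock D u)) c) := by
  intro n hn
  obtain ⟨M, hM, hv⟩ := hper n hn
  have hfin : Finite (ZMod n) := by
    have : NeZero n := ⟨hn.ne'⟩
    infer_instance
  have hE : ∀ a, a ∈ ({c} : Set α) → a ∉ D := by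
    rintro a rfl
    exact hc
  have h1 : Known (fun w (r : Fin M) => ((cnt D {c} M (M - r.1) w : ℕ) : ZMod n)) :=
    Known.pi fun r => cnt_Kn hE hM _ n hn
  have h2 := h1.comp (fun f => ∑ r : Fin M, ((v r.1 : ℕ) : ZMod n) * f r)
  convert h2 using 2 with w
  induction w using List.reverseRecOn with
  | nil => simp [cnt]
  | append_singleton w a ih =>
    rw [psum_snoc]
    push_cast
    rw [ih]
    simp only [cnt_snoc, Nat.cast_add, mul_add, Finset.sum_add_distrib]
    congr 1
    by_cases hac : a = c
    · subst hac
      have hr0 : clock D w % M < M := Nat.mod_lt _ hM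
      rw [if_pos rfl, Finset.sum_eq_single (⟨clock D w % M, hr0⟩ : Fin M)]
      · have hdvd : M ∣ M - clock D w % M + clock D w := by
          have h3 := Nat.mod_add_div (clock D w) M
          have h4 : M - clock D w % M + clock D w = M + M * (clock D w / M) := by omega
          rw [h4]
          exact dvd_add (dvd_refl _) (Dvd.intro _ rfl)
        simp only [Set.mem_singleton_iff, true_and, hdvd, if_true, Nat.cast_one, mul_one]
        exact periodic_mod hv _
      · intro r _ hr
        have hnd : ¬ M ∣ M - r.1 + clock D w := by
          intro hd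
          apply hr
          apply Fin.ext
          simp only
          have hrlt := r.2
          have h5 : (M - r.1 + clock D w) % M = 0 := Nat.mod_eq_zero_of_dvd hd
          have h6 : (M - r.1 + clock D w + r.1) % M = r.1 := by
            rw [Nat.add_mod, h5]
            simp [Nat.mod_eq_of_lt hrlt]
          have h7 : M - r.1 + clock D w + r.1 = clock D w + M := by omega
          rw [h7, Nat.add_mod_right] at h6
          exact h6.symm
        simp [hnd]
      · intro h
        exact absurd (Finset.mem_univ _) h
    · rw [if_neg hac]
      simp [hac]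

end Vale.Agent.Lib.P329.H26
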