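import Mathlib

/-!
# Generalized regular expressions and generalized star height

Definitions follow the problem file: constants `0`, `1`, letters, union, concatenation,
complement (in the set of all words) and Kleene star.
-/

namespace Vale.Agent.Lib.P329.H26

open Computability

universe u

/-- Generalized regular expressions over an alphabet. -/
inductive GRE (α : Type u) : Type u
  | zero : GRE α
  | one : GRE α
  | letter : α → GRE α
  | add : GRE α → GRE α → GRE α
  | mul : GRE α → GRE α → GRE α
  | compl : GRE α → GRE α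
  | star : GRE α → GRE α

namespace GRE

variable {α : Type u}

/-- The language denoted by a generalized regular expression. -/
def lang : GRE α → Language α
  | zero => 0
  | one => 1
  | letter a => {[a]}
  | add P Q => lang P + lang Q
  | mul P Q => lang P * lang Q
  | compl P => (lang P)ᶜ
  | star P => (lang P)∗

/-- The star height of a generalized regular expression. -/
def height : GRE α → ℕ
  | zero => 0
  | one => 0
  | letter _ => 0
  | add P Q => max (height P) (height Q)
  | mul P Q => max (height P) (height Q)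
  | compl P => height P
  | star P => height P + 1

end GRE

/-- `GSH n L`: the set of words `L` has generalized star height at most `n`, i.e. it is denoted
by some generalized regular expression of star height at most `n`. -/
def GSH {α : Type u} (n : ℕ) (L : Set (List α)) : Prop :=
  ∃ e : GRE α, (∀ w, w ∈ e.lang ↔ w ∈ L) ∧ e.height ≤ n

namespace GSH

variable {α : Type u} {n m : ℕ} {L L' : Set (List α)}

theorem mono (h : n ≤ m) (hL : GSH n L) : GSH m L := by
  obtain ⟨e, he, hh⟩ := hL
  exact ⟨e, he, hh.trans h⟩

theorem congr (hL : GSH n L) (h : ∀ w, w ∈ L ↔ w ∈ L') : GSH n L' := by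
  obtain ⟨e, he, hh⟩ := hL
  exact ⟨e, fun w => (he w).trans (h w), hh⟩

theorem empty : GSH n (∅ : Set (List α)) :=
  ⟨GRE.zero, fun _ => by simp [GRE.lang], Nat.zero_le _⟩

theorem nil : GSH n ({[]} : Set (List α)) :=
  ⟨GRE.one, fun w => by simp [GRE.lang, Language.mem_one], Nat.zero_le _⟩

theorem letter (a : α) : GSH n ({[a]} : Set (List α)) :=
  ⟨GRE.letter a, fun w => Iff.rfl, Nat.zero_le _⟩

theorem union (h : GSH n L) (h' : GSH n L') : GSH n (L ∪ L') := by
  obtain ⟨e, he, hh⟩ := h
  obtain ⟨e', he', hh'⟩ := h'
  refine ⟨GRE.add e e', fun w => ?_, by simp [GRE.height, hh, hh']⟩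
  change w ∈ e.lang + e'.lang ↔ _
  rw [Language.mem_add, he, he']
  rfl

/-- Concatenation of two sets of words. -/
theorem app (h : GSH n L) (h' : GSH n L') :
    GSH n {w | ∃ u ∈ L, ∃ v ∈ L', u ++ v = w} := by
  obtain ⟨e, he, hh⟩ := h
  obtain ⟨e', he', hh'⟩ := h'
  refine ⟨GRE.mul e e', fun w => ?_, by simp [GRE.height, hh, hh']⟩
  simp [GRE.lang, Language.mem_mul, he, he']

theorem compl (h : GSH n L) : GSH n Lᶜ := by
  obtain ⟨e, he, hh⟩ := h
  refine ⟨GRE.compl e, fun w => ?_, by simpa [GRE.height] using hh⟩
  have := he w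
  change w ∉ e.lang ↔ w ∉ L
  rw [this]

theorem star (h : GSH n L) :
    GSH (n + 1) {w | ∃ l : List (List α), w = l.flatten ∧ ∀ y ∈ l, y ∈ L} := by
  obtain ⟨e, he, hh⟩ := h
  refine ⟨GRE.star e, fun w => ?_, by simpa [GRE.height] using hh⟩
  simp [GRE.lang, Language.mem_kstar, he]

theorem inter (h : GSH n L) (h' : GSH n L') : GSH n (L ∩ L') := by
  have := (h.compl.union h'.compl).compl
  refine this.congr fun w => ?_
  simp

theorem univ : GSH n (Set.univ : Set (List α)) :=
  (empty.compl).congr fun w => by simp

/-- Finite unions. -/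
theorem iUnion {ι : Type*} [Finite ι] {f : ι → Set (List α)}
    (h : ∀ i, GSH n (f i)) : GSH n (⋃ i, f i) := by
  classical
  cases nonempty_fintype ι
  have key : ∀ s : Finset ι, GSH n (⋃ i ∈ s, f i) := by
    intro s
    induction s using Finset.induction_on with
    | empty => simpa using (empty : GSH n (∅ : Set (List α)))
    | insert a s _ ih =>
      rw [Finset.set_biUnion_insert]
      exact union (h a) ih
  simpa using key Finset.univ

/-- Finite intersections. -/
theorem iInter {ι : Type*} [Finite ι] {f : ι → Set (List α)}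
    (h : ∀ i, GSH n (f i)) : GSH n (⋂ i, f i) := by
  have := (iUnion (fun i => (h i).compl)).compl
  refine this.congr fun w => ?_
  simp

/-- Words all of whose letters lie in a set `A`, over a finite alphabet: a star-free language. -/
theorem allIn [Finite α] (A : Set α) : GSH n {w : List α | ∀ a ∈ w, a ∈ A} := by
  -- the complement of `Σ* (Σ ∖ A) Σ*`
  have h1 : GSH n (⋃ a : {a // a ∉ A}, ({[a.1]} : Set (List α))) :=
    iUnion fun a => letter a.1
  have h2 := (app (app (univ (n := n) (α := α)) h1) (univ (n := n) (α := α))).compl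
  refine h2.congr fun w => ?_
  simp only [Set.mem_compl_iff, Set.mem_ofPred_eq, Set.mem_univ, true_and, Set.mem_iUnion,
    Set.mem_singleton_iff]
  constructor
  · intro h a ha
    by_contra hA
    obtain ⟨s, t, rfl⟩ := List.append_of_mem ha
    exact h ⟨s ++ [a], ⟨s, ⟨[a], ⟨⟨a, hA⟩, rfl⟩, rfl⟩⟩, t, by simp⟩
  · rintro h ⟨u, ⟨s, ⟨v, ⟨⟨a, hA⟩, rfl⟩, rfl⟩⟩, t, rfl⟩
    exact hA (h a (by simp))

end GSH

end Vale.Agent.Lib.P329.H26
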