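import Vale.Agent.Lib.P329.H26.Defs

/-!
# Automata with a hub whose complement is monotone

If a deterministic automaton has a state `q` (the hub) such that, away from `q`, every letter
either fixes a state, or sends it to `q`, or strictly increases a rank function, then all its
path languages have generalized star height at most one.
-/

namespace Vale.Agent.Lib.P329.H26

universe u v

variable {α : Type u} {Q : Type v}

/-- The state reached from `s` after reading `w`. -/
def run (δ : α → Q → Q) : Q → List α → Q
  | s, [] => s
  | s, a :: w => run δ (δ a s) w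

@[simp] theorem run_nil (δ : α → Q → Q) (s : Q) : run δ s [] = s := rfl

@[simp] theorem run_cons (δ : α → Q → Q) (s : Q) (a : α) (w : List α) :
    run δ s (a :: w) = run δ (δ a s) w := rfl

theorem run_append (δ : α → Q → Q) (s : Q) (u v : List α) :
    run δ s (u ++ v) = run δ (run δ s u) v := by
  induction u generalizing s with
  | nil => rfl
  | cons a u ih => exact ih _

/-- The path from `s` reading `w` does not visit `q` after its start. -/
def Avoids (δ : α → Q → Q) (q : Q) : Q → List α → Prop
  | _, [] => True
  | s, a :: w => δ a s ≠ q ∧ Avoids δ q (δ a s) w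

/-- The path from `s` reading `w` visits `q` after its start for the first time at its end. -/
def FirstHit (δ : α → Q → Q) (q : Q) : Q → List α → Prop
  | _, [] => False
  | s, a :: w => (δ a s = q ∧ w = []) ∨ (δ a s ≠ q ∧ FirstHit δ q (δ a s) w)

variable {δ : α → Q → Q} {q : Q}

theorem avoids_append {s : Q} {u v : List α} :
    Avoids δ q s (u ++ v) ↔ Avoids δ q s u ∧ Avoids δ q (run δ s u) v := by
  induction u generalizing s with
  | nil => simp [Avoids]
  | cons a u ih => simp only [List.cons_append, Avoids, run_cons, ih, and_assoc]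

theorem run_ne_of_avoids {s : Q} {w : List α} (h : Avoids δ q s w) (hw : w ≠ []) :
    run δ s w ≠ q := by
  induction w generalizing s with
  | nil => exact absurd rfl hw
  | cons a w ih =>
    cases w with
    | nil => simpa [Avoids] using h.1
    | cons b w => exact ih h.2 (by simp)

theorem run_firstHit {s : Q} {w : List α} (h : FirstHit δ q s w) : run δ s w = q := by
  induction w generalizing s with
  | nil => exact h.elim
  | cons a w ih =>
    rcases h with ⟨h1, rfl⟩ | ⟨_, h2⟩
    · exact h1
    · exact ih h2

theorem firstHit_ne_nil {s : Q} {w : List α} (h : FirstHit δ q s w) : w ≠ [] := by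
  rintro rfl
  exact h

/-- Either the path avoids `q`, or a prefix of the word is a first hit. -/
theorem avoids_or_firstHit (s : Q) (w : List α) :
    Avoids δ q s w ∨ ∃ u v, w = u ++ v ∧ FirstHit δ q s u := by
  induction w generalizing s with
  | nil => exact Or.inl trivial
  | cons a w ih =>
    by_cases h : δ a s = q
    · exact Or.inr ⟨[a], w, rfl, Or.inl ⟨h, rfl⟩⟩
    · rcases ih (δ a s) with h1 | ⟨u, v, rfl, h2⟩
      · exact Or.inl ⟨h, h1⟩
      · exact Or.inr ⟨a :: u, v, rfl, Or.inr ⟨h, h2⟩⟩

/-- The language of paths from `s` to `t` avoiding `q` after the start. -/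
def avoidL (δ : α → Q → Q) (q s t : Q) : Set (List α) :=
  {w | Avoids δ q s w ∧ run δ s w = t}

/-- Returning words of the hub form the star of first-return words. -/
theorem return_eq_star (w : List α) :
    run δ q w = q ↔ ∃ l : List (List α), w = l.flatten ∧ ∀ y ∈ l, FirstHit δ q q y := by
  constructor
  · intro h
    induction hn : w.length using Nat.strong_induction_on generalizing w with
    | _ n ih =>
      by_cases hw : w = []
      · exact ⟨[], by simp [hw], by simp⟩
      · rcases avoids_or_firstHit (δ := δ) (q := q) q w with h1 | ⟨u, v, rfl, h2⟩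
        · exact absurd h (run_ne_of_avoids h1 hw)
        · have hu := run_firstHit h2
          have hv : run δ q v = q := by rw [run_append, hu] at h; exact h
          have hlt : v.length < n := by
            subst hn
            have : u ≠ [] := firstHit_ne_nil h2
            have : 0 < u.length := List.length_pos_iff.mpr this
            simp only [List.length_append]
            omega
          obtain ⟨l, rfl, hl⟩ := ih v.length hlt v hv rfl
          refine ⟨u :: l, by simp, ?_⟩
          intro y hy
          rcases List.mem_cons.mp hy with rfl | hy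
          · exact h2
          · exact hl y hy
  · rintro ⟨l, rfl, hl⟩
    induction l with
    | nil => rfl
    | cons y l ih =>
      rw [List.flatten_cons, run_append, run_firstHit (hl y (by simp))]
      exact ih fun z hz => hl z (by simp [hz])

/-- Last-visit decomposition of a path starting at the hub. -/
theorem exists_last_visit (w : List α) :
    ∃ m v, w = m ++ v ∧ run δ q m = q ∧ Avoids δ q q v := by
  induction hn : w.length using Nat.strong_induction_on generalizing w with
  | _ n ih =>
    rcases avoids_or_firstHit (δ := δ) (q := q) q w with h1 | ⟨u, v, rfl, h2⟩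
    · exact ⟨[], w, rfl, rfl, h1⟩
    · have hlt : v.length < n := by
        subst hn
        have : u ≠ [] := firstHit_ne_nil h2
        have : 0 < u.length := List.length_pos_iff.mpr this
        simp only [List.length_append]
        omega
      obtain ⟨m, v', rfl, hm, hv'⟩ := ih v.length hlt v rfl
      refine ⟨u ++ m, v', by simp, ?_, hv'⟩
      rw [run_append, run_firstHit h2, hm]

/-- Path languages expressed through hub languages. -/
theorem run_eq_iff (s t : Q) (w : List α) :
    run δ s w = t ↔ w ∈ avoidL δ q s t ∨
      ∃ u, FirstHit δ q s u ∧ ∃ m, run δ q m = q ∧ ∃ v, v ∈ avoidL δ q q t ∧ w = u ++ (m ++ v) := by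
  constructor
  · intro h
    rcases avoids_or_firstHit (δ := δ) (q := q) s w with h1 | ⟨u, v, rfl, h2⟩
    · exact Or.inl ⟨h1, h⟩
    · right
      obtain ⟨m, v', rfl, hm, hv'⟩ := exists_last_visit (δ := δ) (q := q) v
      refine ⟨u, h2, m, hm, v', ⟨hv', ?_⟩, rfl⟩
      rw [run_append, run_firstHit h2, run_append, hm] at h
      exact h
  · rintro (h | ⟨u, hu, m, hm, v, hv, rfl⟩)
    · exact h.2
    · rw [run_append, run_firstHit hu, run_append, hm]
      exact hv.2

/-- Monotonicity away from the hub. -/
def MonoHub (δ : α → Q → Q) (q : Q) (r : Q → ℕ) : Prop :=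
  ∀ x, x ≠ q → ∀ a, δ a x = x ∨ δ a x = q ∨ r x < r (δ a x)

theorem GSH.cond {n : ℕ} {L : Set (List α)} (p : Prop) (h : GSH n L) : GSH n {w | p ∧ w ∈ L} := by
  by_cases hp : p
  · exact h.congr fun w => by simp [hp]
  · exact (GSH.empty (n := n)).congr fun w => by simp [hp]

/-- In a monotone hub automaton the avoiding path languages are star-free. -/
theorem avoidL_GSH [Finite α] [Finite Q] {r : Q → ℕ} (hm : MonoHub δ q r) {n : ℕ} (t : Q) :
    ∀ s, s ≠ q → GSH n (avoidL δ q s t) := by
  classical
  obtain ⟨B, hB⟩ : ∃ B, ∀ x, r x ≤ B := by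
    obtain ⟨B, hB⟩ := (Set.finite_range r).bddAbove
    exact ⟨B, fun x => hB (Set.mem_range_self x)⟩
  have key : ∀ k s, B - r s ≤ k → s ≠ q → GSH n (avoidL δ q s t) := by
    intro k
    induction k with
    | zero => ?_
    | succ k ih => ?_
    all_goals
      intro s hk hs
      -- the loop letters
      let W : Set (List α) := {w | ∀ a ∈ w, δ a s = s}
      have hW : GSH n W := GSH.allIn {a | δ a s = s}
      -- the exits
      have hexit : ∀ a : {a // δ a s ≠ s ∧ δ a s ≠ q}, GSH n (avoidL δ q (δ a.1 s) t) := by
        intro a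
        have hlt : r s < r (δ a.1 s) := by
          rcases hm s hs a.1 with h | h | h
          · exact absurd h a.2.1
          · exact absurd h a.2.2
          · exact h
      -- placeholders are filled below
        first
          | (have := hB (δ a.1 s); omega)
          | exact ih _ (by have := hB (δ a.1 s); omega) a.2.2
      have hunion : GSH n (⋃ a : {a // δ a s ≠ s ∧ δ a s ≠ q},
          {w | ∃ u ∈ W, ∃ v ∈ {w | ∃ u ∈ ({[a.1]} : Set (List α)),
            ∃ v ∈ avoidL δ q (δ a.1 s) t, u ++ v = w}, u ++ v = w}) :=
        GSH.iUnion fun a => GSH.app hW (GSH.app (GSH.letter a.1) (hexit a))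
      have hfix : GSH n {w | s = t ∧ w ∈ W} := GSH.cond _ hW
      refine (hfix.union hunion).congr fun w => ?_
      constructor
      · rintro (⟨rfl, hw⟩ | hw)
        · -- only loops
          have : ∀ w : List α, (∀ a ∈ w, δ a s = s) → Avoids δ q s w ∧ run δ s w = s := by
            intro w
            induction w with
            | nil => intro _; exact ⟨trivial, rfl⟩
            | cons a w ih' =>
              intro h
              have ha : δ a s = s := h a (by simp)
              have := ih' (fun b hb => h b (by simp [hb]))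
              exact ⟨⟨by rw [ha]; exact hs, by rw [ha]; exact this.1⟩, by simp [ha, this.2]⟩
          exact this w hw
        · obtain ⟨a, u, hu, v, ⟨_, rfl, v', hv', rfl⟩, rfl⟩ := Set.mem_iUnion.mp hw
          have hloop : ∀ w : List α, (∀ a ∈ w, δ a s = s) → Avoids δ q s w ∧ run δ s w = s := by
            intro w
            induction w with
            | nil => intro _; exact ⟨trivial, rfl⟩
            | cons a w ih' =>
              intro h
              have ha : δ a s = s := h a (by simp)
              have := ih' (fun b hb => h b (by simp [hb]))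
              exact ⟨⟨by rw [ha]; exact hs, by rw [ha]; exact this.1⟩, by simp [ha, this.2]⟩
          have hu' := hloop u hu
          refine ⟨avoids_append.mpr ⟨hu'.1, ?_⟩, ?_⟩
          · rw [hu'.2]
            exact ⟨a.2.2, hv'.1⟩
          · rw [run_append, hu'.2]
            exact hv'.2
      · rintro ⟨h1, h2⟩
        induction w with
        | nil => exact Or.inl ⟨h2, fun _ hb => by cases hb⟩
        | cons a w ih' =>
          by_cases ha : δ a s = s
          · have h1' : Avoids δ q s w := by
              have := h1.2; rwa [ha] at this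
            have h2' : run δ s w = t := by
              have := h2; rw [run_cons, ha] at this; exact this
            rcases ih' h1' h2' with ⟨h3, h4⟩ | h3
            · refine Or.inl ⟨h3, ?_⟩
              intro b hb
              rcases List.mem_cons.mp hb with rfl | hb
              · exact ha
              · exact h4 b hb
            · obtain ⟨b, u, hu, v, hv, rfl⟩ := Set.mem_iUnion.mp h3
              refine Or.inr (Set.mem_iUnion.mpr ⟨b, a :: u, ?_, v, hv, rfl⟩)
              intro c hc
              rcases List.mem_cons.mp hc with rfl | hc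
              · exact ha
              · exact hu c hc
          · refine Or.inr (Set.mem_iUnion.mpr ⟨⟨a, ha, h1.1⟩, [], (fun _ hb => by cases hb), a :: w,
              ⟨[a], rfl, w, ⟨h1.2, h2⟩, rfl⟩, rfl⟩)
  intro s hs
  exact key _ s le_rfl hs

/-- The avoiding path languages from the hub itself are star-free too. -/
theorem avoidL_hub_GSH [Finite α] [Finite Q] {r : Q → ℕ} (hm : MonoHub δ q r) {n : ℕ} (t : Q) :
    GSH n (avoidL δ q q t) := by
  classical
  have hunion : GSH n (⋃ a : {a // δ a q ≠ q},
      {w | ∃ u ∈ ({[a.1]} : Set (List α)), ∃ v ∈ avoidL δ q (δ a.1 q) t, u ++ v = w}) :=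
    GSH.iUnion fun a => GSH.app (GSH.letter a.1) (avoidL_GSH hm t _ a.2)
  have hfix : GSH n {w : List α | q = t ∧ w ∈ ({[]} : Set (List α))} := GSH.cond _ GSH.nil
  refine (hfix.union hunion).congr fun w => ?_
  constructor
  · rintro (⟨rfl, rfl⟩ | hw)
    · exact ⟨trivial, rfl⟩
    · obtain ⟨a, _, rfl, v, hv, rfl⟩ := Set.mem_iUnion.mp hw
      exact ⟨⟨a.2, hv.1⟩, hv.2⟩
  · rintro ⟨h1, h2⟩
    cases w with
    | nil => exact Or.inl ⟨h2, rfl⟩
    | cons a w =>
      exact Or.inr (Set.mem_iUnion.mpr ⟨⟨a, h1.1⟩, [a], rfl, w, ⟨h1.2, h2⟩, rfl⟩)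

/-- All avoiding path languages are star-free. -/
theorem avoidL_all_GSH [Finite α] [Finite Q] {r : Q → ℕ} (hm : MonoHub δ q r) {n : ℕ} (s t : Q) :
    GSH n (avoidL δ q s t) := by
  by_cases hs : s = q
  · subst hs; exact avoidL_hub_GSH hm t
  · exact avoidL_GSH hm t s hs

theorem firstHit_of_avoids {s : Q} {u : List α} {a : α} (hu : Avoids δ q s u)
    (ha : δ a (run δ s u) = q) : FirstHit δ q s (u ++ [a]) := by
  induction u generalizing s with
  | nil => exact Or.inl ⟨ha, rfl⟩
  | cons b u ih => exact Or.inr ⟨hu.1, ih hu.2 ha⟩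

theorem avoids_of_firstHit {s : Q} {w : List α} (hw : FirstHit δ q s w) :
    ∃ u a, w = u ++ [a] ∧ Avoids δ q s u ∧ δ a (run δ s u) = q := by
  induction w generalizing s with
  | nil => exact hw.elim
  | cons b w ih =>
    rcases hw with ⟨h1, rfl⟩ | ⟨h1, h2⟩
    · exact ⟨[], b, rfl, trivial, h1⟩
    · obtain ⟨u, a, rfl, hu, ha⟩ := ih h2
      exact ⟨b :: u, a, rfl, ⟨h1, hu⟩, ha⟩

/-- First-hit languages are star-free. -/
theorem firstHit_GSH [Finite α] [Finite Q] {r : Q → ℕ} (hm : MonoHub δ q r) {n : ℕ} (s : Q) :
    GSH n {w | FirstHit δ q s w} := by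
  classical
  have hunion : GSH n (⋃ p : {p : Q × α // δ p.2 p.1 = q},
      {w | ∃ u ∈ avoidL δ q s p.1.1, ∃ v ∈ ({[p.1.2]} : Set (List α)), u ++ v = w}) :=
    GSH.iUnion fun p => GSH.app (avoidL_all_GSH hm s _) (GSH.letter _)
  refine hunion.congr fun w => ?_
  constructor
  · intro hw
    obtain ⟨p, u, hu, v, rfl, rfl⟩ := Set.mem_iUnion.mp hw
    obtain ⟨⟨t, a⟩, hp⟩ := p
    obtain ⟨hu1, hu2⟩ := hu
    subst hu2
    exact firstHit_of_avoids hu1 hp
  · intro hw
    obtain ⟨u, a, rfl, hu, ha⟩ := avoids_of_firstHit hw
    exact Set.mem_iUnion.mpr ⟨⟨(run δ s u, a), ha⟩, u, ⟨hu, rfl⟩, [a], rfl, rfl⟩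

/-- **Monotone hub theorem**: all path languages of a monotone hub automaton have generalized
star height at most one. -/
theorem run_GSH [Finite α] [Finite Q] {r : Q → ℕ} (hm : MonoHub δ q r) (s t : Q) :
    GSH 1 {w | run δ s w = t} := by
  have h1 : GSH 1 (avoidL δ q s t) := avoidL_all_GSH hm s t
  have h2 : GSH 1 {w | FirstHit δ q s w} := firstHit_GSH hm s
  have h3 : GSH 1 {w | run δ q w = q} := by
    have := (firstHit_GSH hm (n := 0) q).star
    exact this.congr fun w => (return_eq_star w).symm
  have h4 : GSH 1 (avoidL δ q q t) := avoidL_all_GSH hm q t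
  refine (h1.union (GSH.app h2 (GSH.app h3 h4))).congr fun w => ?_
  rw [Set.mem_ofPred_eq, run_eq_iff (q := q) s t w]
  constructor
  · rintro (h | ⟨u, hu, _, ⟨m, hm', v, hv', rfl⟩, rfl⟩)
    · exact Or.inl h
    · exact Or.inr ⟨u, hu, m, hm', v, hv', rfl⟩
  · rintro (h | ⟨u, hu, m, hm', v, hv', rfl⟩)
    · exact Or.inl h
    · exact Or.inr ⟨u, hu, _, ⟨m, hm', v, hv', rfl⟩, rfl⟩

end Vale.Agent.Lib.P329.H26
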