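import Vale.Agent.Lib.P329.H26.Hub

/-!
# Functions of words with level sets of generalized star height at most one
-/

namespace Vale.Agent.Lib.P329.H26

universe u v w

variable {α : Type u} {β : Type v} {γ : Type w}

/-- All level sets of `f` have generalized star height at most one. -/
def Known (f : List α → β) : Prop := ∀ b, GSH 1 {w | f w = b}

namespace Known

variable {f : List α → β}

theorem const (b : β) : Known (fun _ : List α => b) := by
  classical
  intro c
  by_cases h : b = c
  · exact (GSH.univ (n := 1)).congr fun w => by simp [h]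
  · exact (GSH.empty (n := 1)).congr fun w => by simp [h]

theorem comp [Finite β] (hf : Known f) (g : β → γ) : Known (fun w => g (f w)) := by
  intro c
  have : GSH 1 (⋃ b : {b // g b = c}, {w | f w = b.1}) := GSH.iUnion fun b => hf b.1
  refine this.congr fun w => ?_
  simp only [Set.mem_iUnion, Set.mem_ofPred_eq]
  constructor
  · rintro ⟨⟨b, hb⟩, h⟩
    change f w = b at h
    rw [h]; exact hb
  · intro h
    exact ⟨⟨f w, h⟩, rfl⟩

theorem pair {f' : List α → γ} (hf : Known f) (hf' : Known f') : Known (fun w => (f w, f' w)) := by
  rintro ⟨b, c⟩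
  refine ((hf b).inter (hf' c)).congr fun w => ?_
  simp [Prod.ext_iff]

theorem map₂ {δ : Type*} [Finite β] [Finite γ] {f' : List α → γ} (hf : Known f) (hf' : Known f')
    (g : β → γ → δ) : Known (fun w => g (f w) (f' w)) :=
  (hf.pair hf').comp (fun p => g p.1 p.2)

theorem pi {ι : Type*} [Finite ι] {F : ι → List α → β} (h : ∀ i, Known (F i)) :
    Known (fun w i => F i w) := by
  intro c
  refine (GSH.iInter fun i => h i (c i)).congr fun w => ?_
  simp [funext_iff]

/-- Languages recognized through a known function. -/
theorem preimage [Finite β] (hf : Known f) (S : Set β) : GSH 1 {w | f w ∈ S} := by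
  classical
  have := hf.comp (fun b => decide (b ∈ S)) true
  refine this.congr fun w => ?_
  simp

end Known

/-- `Kn f`: the residues of the natural number valued function `f` are known for every modulus. -/
def Kn (f : List α → ℕ) : Prop := ∀ n : ℕ, 0 < n → Known (fun w => ((f w : ℕ) : ZMod n))

namespace Kn

variable {f g : List α → ℕ}

theorem add (hf : Kn f) (hg : Kn g) : Kn (fun w => f w + g w) := by
  intro n hn
  have : NeZero n := ⟨hn.ne'⟩
  have : Finite (ZMod n) := inferInstance
  have := (hf n hn).map₂ (hg n hn) (fun a b => a + b)
  simpa using this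

theorem mul (hf : Kn f) (hg : Kn g) : Kn (fun w => f w * g w) := by
  intro n hn
  have : NeZero n := ⟨hn.ne'⟩
  have : Finite (ZMod n) := inferInstance
  have := (hf n hn).map₂ (hg n hn) (fun a b => a * b)
  simpa using this

/-- If a sum and one summand are known, so is the other summand. -/
theorem of_add_left (hfg : Kn (fun w => f w + g w)) (hg : Kn g) : Kn f := by
  intro n hn
  have : NeZero n := ⟨hn.ne'⟩
  have : Finite (ZMod n) := inferInstance
  have := (hfg n hn).map₂ (hg n hn) (fun a b => a - b)
  simpa using this

theorem of_add_right (hfg : Kn (fun w => f w + g w)) (hf : Kn f) : Kn g :=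
  of_add_left (f := g) (g := f) (by simpa [Nat.add_comm] using hfg) hf

/-- If twice a function is known, the function itself is known. -/
theorem of_two_mul (h : Kn (fun w => 2 * f w)) : Kn f := by
  intro n hn
  have hn2 : 0 < 2 * n := by omega
  have : NeZero (2 * n) := ⟨hn2.ne'⟩
  have : Finite (ZMod (2 * n)) := inferInstance
  have := (h (2 * n) hn2).comp (fun x : ZMod (2 * n) => ((x.val / 2 : ℕ) : ZMod n))
  convert this using 2 with w
  rw [ZMod.val_natCast, Nat.mul_mod_mul_left, Nat.mul_div_cancel_left _ (by norm_num : 0 < 2)]
  simp

end Kn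

end Vale.Agent.Lib.P329.H26
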