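import Vale.Agent.Lib.P329.H26.Subword3

/-!
# Abstract step: a functional with values in a finite commutative group, built from subword counts
-/

namespace Vale.Agent.Lib.P329.H26

open Classical

universe u v

variable {α : Type u} {A : Type v} [CommGroup A]

/-- Auxiliary version of `PP`. -/
noncomputable def PPAux (f : List α → A) (c : α) (pre : List α) : List α → A
  | [] => 1
  | a :: w => (if a = c then f pre else 1) * PPAux f c (pre ++ [a]) w

/-- Product over the occurrences of the letter `c` in a word of `f` of the prefix before them. -/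
noncomputable def PP (f : List α → A) (c : α) (w : List α) : A := PPAux f c [] w

theorem PPAux_snoc (f : List α → A) (c : α) (pre w : List α) (a : α) :
    PPAux f c pre (w ++ [a]) = PPAux f c pre w * if a = c then f (pre ++ w) else 1 := by
  induction w generalizing pre with
  | nil => simp [PPAux]
  | cons b w ih =>
    simp only [List.cons_append, PPAux, ih, List.append_assoc, List.nil_append, mul_assoc]

@[simp] theorem PP_nil (f : List α → A) (c : α) : PP f c [] = 1 := rfl

theorem PP_snoc (f : List α → A) (c : α) (w : List α) (a : α) :
    PP f c (w ++ [a]) = PP f c w * if a = c then f w else 1 := by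
  simp [PP, PPAux_snoc]

theorem PP_mul (f g : List α → A) (c : α) (w : List α) :
    PP (fun u => f u * g u) c w = PP f c w * PP g c w := by
  induction w using List.reverseRecOn with
  | nil => simp
  | append_singleton w a ih =>
    simp only [PP_snoc, ih]
    split_ifs <;> simp [mul_assoc, mul_left_comm]

theorem PP_one (c : α) (w : List α) : PP (fun _ => (1 : A)) c w = 1 := by
  induction w using List.reverseRecOn with
  | nil => simp
  | append_singleton w a ih => simp [PP_snoc, ih]

theorem PP_pow (z : A) (e : List α → ℕ) (c : α) (w : List α) :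
    PP (fun u => z ^ e u) c w = z ^ psum e c w := by
  induction w using List.reverseRecOn with
  | nil => simp
  | append_singleton w a ih =>
    simp only [PP_snoc, psum_snoc, ih, pow_add]
    split_ifs <;> simp

theorem PP_hom (τ : A →* A) (f : List α → A) (c : α) (w : List α) :
    τ (PP f c w) = PP (fun u => τ (f u)) c w := by
  induction w using List.reverseRecOn with
  | nil => simp
  | append_singleton w a ih =>
    simp only [PP_snoc, map_mul, ih]
    split_ifs <;> simp

theorem PP_prod {ι : Type*} (s : Finset ι) (f : ι → List α → A) (c : α) (w : List α) :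
    PP (fun u => ∏ i ∈ s, f i u) c w = ∏ i ∈ s, PP (f i) c w := by
  induction s using Finset.induction_on with
  | empty => simpa using PP_one c w
  | insert a s ha ih =>
    simp only [Finset.prod_insert ha]
    rw [PP_mul, ih]

section Known

variable [Finite α] [Finite A]

theorem Known.mul {f g : List α → A} (hf : Known f) (hg : Known g) :
    Known (fun w => f w * g w) :=
  hf.map₂ hg (fun a b => a * b)

theorem Known.prod {ι : Type*} (s : Finset ι) {f : ι → List α → A} (h : ∀ i, Known (f i)) :
    Known (fun w => ∏ i ∈ s, f i w) := by
  induction s using Finset.induction_on with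
  | empty => simpa using Known.const (1 : A)
  | insert a s ha ih =>
    simp only [Finset.prod_insert ha]
    exact (h a).mul ih

omit [CommGroup A] [Finite A] in
theorem Kn.pow_known {G : Type*} [Group G] [Finite G] {e : List α → ℕ} (he : Kn e) (z : G) :
    Known (fun w => z ^ e w) := by
  have hm : 0 < Nat.card G := Nat.card_pos
  have h0 : NeZero (Nat.card G) := ⟨hm.ne'⟩
  have hfin : Finite (ZMod (Nat.card G)) := inferInstance
  have := (he _ hm).comp (fun x : ZMod (Nat.card G) => z ^ x.val)
  convert this using 2 with w
  rw [ZMod.val_natCast, pow_mod_natCard]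

end Known

/-- The count vector of a word. -/
noncomputable def cv (u : List α) : α → ℕ := fun i => cnt1 i u

/-- Functions of count vectors whose weighted products along a letter `a` are made of subword
counts of length at most three. `τ` is a family of endomorphisms of `A`. -/
inductive XF (τ : α → A →* A) (a : α) : ((α → ℕ) → A) → Prop
  | one : XF τ a (fun _ => 1)
  | lin (c : A) (i : α) (hi : i ≠ a) : XF τ a (fun x => c ^ x i)
  | bin (z : A) (hz : ∀ b, τ b z = 1) (i : α) (hi : i ≠ a) :
      XF τ a (fun x => z ^ (x i).choose 2)
  | qua (z : A) (hz : ∀ b, τ b z = 1) (i k : α) (hi : i ≠ a) (hk : k ≠ a) (hik : i ≠ k) :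
      XF τ a (fun x => z ^ (x i * x k))
  | mul {F F' : (α → ℕ) → A} : XF τ a F → XF τ a F' → XF τ a (fun x => F x * F' x)

theorem XF.congr {τ : α → A →* A} {a : α} {F F' : (α → ℕ) → A} (h : XF τ a F)
    (hF : ∀ x, F' x = F x) : XF τ a F' := by
  have : F' = F := funext hF
  rwa [this]

variable [Finite α] [Finite A]

theorem XF.known {τ : α → A →* A} {a : α} {F : (α → ℕ) → A} (h : XF τ a F) :
    Known (PP (fun u => F (cv u)) a) := by
  induction h with
  | one =>
    have : PP (fun _ : List α => (1 : A)) a = fun _ => 1 := funext (PP_one a)
    simpa [this] using Known.const (1 : A)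
  | lin c i hi =>
    have : PP (fun u => c ^ (cv u i)) a = fun w => c ^ (S2 i a w) := by
      funext w
      exact PP_pow c (fun u => cnt1 i u) a w
    simp only [this]
    exact Kn.pow_known (S2_Kn hi) c
  | bin z hz i hi =>
    have : PP (fun u => z ^ (cv u i).choose 2) a =
        fun w => z ^ (psum (fun u => (cnt1 i u).choose 2) a w) := by
      funext w
      exact PP_pow z (fun u => (cnt1 i u).choose 2) a w
    simp only [this]
    exact Kn.pow_known (S3_iij_Kn hi) z
  | qua z hz i k hi hk hik =>
    have : PP (fun u => z ^ (cv u i * cv u k)) a =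
        fun w => z ^ (psum (fun u => cnt1 i u * cnt1 k u) a w) := by
      funext w
      exact PP_pow z (fun u => cnt1 i u * cnt1 k u) a w
    simp only [this]
    exact Kn.pow_known (psum_mul_Kn hik hi hk) z
  | mul _ _ ih ih' =>
    have : ∀ F F' : (α → ℕ) → A, PP (fun u => F (cv u) * F' (cv u)) a =
        fun w => PP (fun u => F (cv u)) a w * PP (fun u => F' (cv u)) a w := by
      intro F F'
      funext w
      exact PP_mul _ _ a w
    simp only [this]
    exact Known.mul ih ih'

theorem XF.known₂ {τ : α → A →* A} {a : α} {F : (α → ℕ) → A} (h : XF τ a F) (b : α) :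
    Known (PP (fun u => τ b (PP (fun v => F (cv v)) a u)) b) := by
  induction h with
  | one =>
    have : ∀ u : List α, τ b (PP (fun _ : List α => (1 : A)) a u) = 1 := by
      intro u
      rw [PP_one, map_one]
    simp only [this]
    have : PP (fun _ : List α => (1 : A)) b = fun _ => 1 := funext (PP_one b)
    simpa [this] using Known.const (1 : A)
  | lin c i hi =>
    have h1 : ∀ u : List α, τ b (PP (fun v => c ^ (cv v i)) a u) = (τ b c) ^ (S2 i a u) := by
      intro u
      have : PP (fun v => c ^ (cv v i)) a u = c ^ (S2 i a u) :=
        PP_pow c (fun v => cnt1 i v) a u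
      rw [this, map_pow]
    simp only [h1]
    have : PP (fun u => (τ b c) ^ (S2 i a u)) b = fun w => (τ b c) ^ (psum (S2 i a) b w) := by
      funext w
      exact PP_pow _ _ b w
    simp only [this]
    exact Kn.pow_known (S3_Kn hi b) _
  | bin z hz i hi =>
    have h1 : ∀ u : List α, τ b (PP (fun v => z ^ (cv v i).choose 2) a u) = 1 := by
      intro u
      have : PP (fun v => z ^ (cv v i).choose 2) a u =
          z ^ (psum (fun v => (cnt1 i v).choose 2) a u) :=
        PP_pow z (fun v => (cnt1 i v).choose 2) a u
      rw [this, map_pow, hz, one_pow]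
    simp only [h1]
    have : PP (fun _ : List α => (1 : A)) b = fun _ => 1 := funext (PP_one b)
    simpa [this] using Known.const (1 : A)
  | qua z hz i k hi hk hik =>
    have h1 : ∀ u : List α, τ b (PP (fun v => z ^ (cv v i * cv v k)) a u) = 1 := by
      intro u
      have : PP (fun v => z ^ (cv v i * cv v k)) a u =
          z ^ (psum (fun v => cnt1 i v * cnt1 k v) a u) :=
        PP_pow z (fun v => cnt1 i v * cnt1 k v) a u
      rw [this, map_pow, hz, one_pow]
    simp only [h1]
    have : PP (fun _ : List α => (1 : A)) b = fun _ => 1 := funext (PP_one b)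
    simpa [this] using Known.const (1 : A)
  | @mul F F' _ _ ih ih' =>
    have h1 : ∀ u : List α, τ b (PP (fun v => F (cv v) * F' (cv v)) a u) =
        τ b (PP (fun v => F (cv v)) a u) * τ b (PP (fun v => F' (cv v)) a u) := by
      intro u
      rw [PP_mul, map_mul]
    simp only [h1]
    have : PP (fun u => τ b (PP (fun v => F (cv v)) a u) * τ b (PP (fun v => F' (cv v)) a u)) b =
        fun w => PP (fun u => τ b (PP (fun v => F (cv v)) a u)) b w *
          PP (fun u => τ b (PP (fun v => F' (cv v)) a u)) b w := by
      funext w
      exact PP_mul _ _ b w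
    simp only [this]
    exact Known.mul ih ih'

/-- The abstract recursion is known. -/
theorem known_of_rec (τ : α → A →* A) (hτ : ∀ a b y, τ a (τ b y) = 1)
    (η : α → (α → ℕ) → A) (hη : ∀ a, XF τ a (η a)) (β : List α → A) (h0 : β [] = 1)
    (hrec : ∀ w a, β (w ++ [a]) = η a (cv w) * β w * τ a (β w)) : Known β := by
  cases nonempty_fintype α
  let β0 : List α → A := fun w => ∏ a : α, PP (fun u => η a (cv u)) a w
  let β1 : List α → A := fun w => ∏ b : α, PP (fun u => τ b (β0 u)) b w
  have hβ0 : ∀ w a, β0 (w ++ [a]) = β0 w * η a (cv w) := by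
    intro w a
    simp only [β0, PP_snoc, Finset.prod_mul_distrib]
    congr 1
    rw [Finset.prod_ite_eq]
    simp
  have hβ1 : ∀ w a, β1 (w ++ [a]) = β1 w * τ a (β0 w) := by
    intro w a
    simp only [β1, PP_snoc, Finset.prod_mul_distrib]
    congr 1
    rw [Finset.prod_ite_eq]
    simp
  have hkill : ∀ a w, τ a (β1 w) = 1 := by
    intro a w
    simp only [β1, map_prod]
    apply Finset.prod_eq_one
    intro b _
    rw [PP_hom]
    simp only [hτ]
    exact PP_one b w
  have hβ : ∀ w, β w = β0 w * β1 w := by
    intro w
    induction w using List.reverseRecOn with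
    | nil => simp [h0, β0, β1]
    | append_singleton w a ih =>
      rw [hrec, ih, hβ0, hβ1, map_mul, hkill]
      simp only [mul_one]
      rw [mul_comm (η a (cv w)) _]
      simp only [mul_assoc, mul_left_comm, mul_comm]
  have hk0 : Known β0 := Known.prod _ fun a => (hη a).known
  have hk1 : Known β1 := by
    apply Known.prod _ fun b => ?_
    have : PP (fun u => τ b (β0 u)) b = fun w =>
        ∏ a : α, PP (fun u => τ b (PP (fun v => η a (cv v)) a u)) b w := by
      funext w
      have h2 : ∀ u, τ b (β0 u) = ∏ a : α, τ b (PP (fun v => η a (cv v)) a u) := by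
        intro u
        simp only [β0, map_prod]
      simp only [h2]
      exact PP_prod _ _ _ _
    rw [this]
    exact Known.prod _ fun a => (hη a).known₂ b
  have := Known.mul hk0 hk1
  convert this using 2 with w
  exact hβ w

end Vale.Agent.Lib.P329.H26
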