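import Vale.Agent.Lib.P329.H26.NF3

/-!
# Commutator calculus in groups of nilpotency class at most three
-/

namespace Vale.Agent.Lib.P329.H26

open commutatorElement

universe u v

/-- The lower central series of the whole group; `Γ G 0 = ⊤`. -/
abbrev Γ (G : Type*) [Group G] (n : ℕ) : Subgroup G := (⊤ : Subgroup G).lowerCentralSeries n

section Calculus

variable {G : Type u} [Group G]

/-- The right-normed commutator `x⁻¹ y⁻¹ x y`. -/
def rc (x y : G) : G := x⁻¹ * y⁻¹ * x * y

theorem rc_eq (x y : G) : rc x y = ⁅x⁻¹, y⁻¹⁆ := by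
  simp [rc, commutatorElement_def]

theorem mul_rc (x y : G) : y⁻¹ * x * y = x * rc x y := by
  simp [rc, mul_assoc]

theorem rc_mem_two (x y : G) : rc x y ∈ Γ G 1 := by
  rw [rc_eq]
  exact Subgroup.commutator_mem_commutator (Subgroup.mem_top _) (Subgroup.mem_top _)

theorem rc_mem_three {c : G} (hc : c ∈ Γ G 1) (y : G) :
    rc c y ∈ Γ G 2 := by
  rw [rc_eq]
  exact Subgroup.commutator_mem_commutator (inv_mem hc) (Subgroup.mem_top _)

theorem lcs_two_le : Γ G 2 ≤ Γ G 1 :=
  Subgroup.lowerCentralSeries_antitone _ (by norm_num)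

theorem rc_one_right (c : G) : rc c (1 : G) = 1 := by
  simp [rc]

variable (hG : Γ G 3 = ⊥)
include hG

theorem central_of_mem {z : G} (hz : z ∈ Γ G 2) (y : G) : z * y = y * z := by
  have h : ⁅z, y⁆ ∈ Γ G 3 :=
    Subgroup.commutator_mem_commutator hz (Subgroup.mem_top _)
  rw [hG, Subgroup.mem_bot] at h
  exact commutatorElement_eq_one_iff_mul_comm.mp h

theorem rc_central {z : G} (hz : z ∈ Γ G 2) (y : G) : rc z y = 1 := by
  have := central_of_mem hG hz y
  have h2 : y⁻¹ * z * y = z := by rw [mul_assoc, this]; simp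
  simp only [rc, mul_assoc]
  rw [← mul_assoc y⁻¹, h2]
  simp

theorem rc_mul_right {c : G} (hc : c ∈ Γ G 1) (y y' : G) :
    rc c (y * y') = rc c y * rc c y' := by
  have hz := rc_mem_three hc y
  have h1 : y⁻¹ * c * y = c * rc c y := mul_rc c y
  have h2 : rc c (y * y') = c⁻¹ * y'⁻¹ * (y⁻¹ * c * y) * y' := by
    simp [rc, mul_assoc]
  rw [h2, h1]
  calc c⁻¹ * y'⁻¹ * (c * rc c y) * y' = (c⁻¹ * y'⁻¹ * c) * (rc c y * y') := by simp [mul_assoc]
    _ = (c⁻¹ * y'⁻¹ * c) * (y' * rc c y) := by rw [central_of_mem hG hz y']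
    _ = rc c y' * rc c y := by simp [rc, mul_assoc]
    _ = rc c y * rc c y' := (central_of_mem hG hz (rc c y')).symm

theorem rc_mul_left {c c' : G} (hc : c ∈ Γ G 1) (y : G) :
    rc (c * c') y = rc c y * rc c' y := by
  have hz := rc_mem_three hc y
  have h1 : y⁻¹ * c * y = c * rc c y := mul_rc c y
  have h1' : y⁻¹ * c' * y = c' * rc c' y := mul_rc c' y
  have h2 : rc (c * c') y = c'⁻¹ * c⁻¹ * (y⁻¹ * c * y) * (y⁻¹ * c' * y) := by
    simp [rc, mul_assoc]
  rw [h2, h1, h1']
  have h3 : c'⁻¹ * c⁻¹ * (c * rc c y) * (c' * rc c' y) = c'⁻¹ * (rc c y * c') * rc c' y := by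
    simp [mul_assoc]
  rw [h3, central_of_mem hG hz c']
  simp

theorem rc_inv_right {c : G} (hc : c ∈ Γ G 1) (y : G) :
    rc c y⁻¹ = (rc c y)⁻¹ := by
  have := rc_mul_right hG hc y y⁻¹
  rw [mul_inv_cancel, rc_one_right] at this
  exact eq_inv_of_mul_eq_one_right this.symm

/-- Elements of the second term of the lower central series commute. -/
theorem two_comm {c c' : G} (hc : c ∈ Γ G 1) (hc' : c' ∈ Γ G 1) :
    c * c' = c' * c := by
  have hle : Γ G 1 ≤ Subgroup.centralizer {c} := by
    change ⁅Γ G 0, ⊤⁆ ≤ _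
    rw [Subgroup.commutator_le]
    intro a _ b _
    rw [Subgroup.mem_centralizer_singleton_iff]
    -- `rc c ⁅a, b⁆ = 1`
    have h1 : rc c ⁅a, b⁆ = 1 := by
      rw [commutatorElement_def, rc_mul_right hG hc, rc_mul_right hG hc, rc_mul_right hG hc,
        rc_inv_right hG hc, rc_inv_right hG hc]
      have hz := rc_mem_three hc a
      have := central_of_mem hG hz (rc c b)
      rw [this]
      simp
    -- conclude
    have h2 := mul_rc c ⁅a, b⁆
    rw [h1, mul_one] at h2
    have h3 : ⁅a, b⁆ * (⁅a, b⁆⁻¹ * c * ⁅a, b⁆) = c * ⁅a, b⁆ := by group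
    rw [h2] at h3
    exact h3
  have := hle hc'
  rw [Subgroup.mem_centralizer_singleton_iff] at this
  exact this.symm

end Calculus

section Main

variable {G : Type v} [Group G]

/-- The second term of the lower central series, as a type (commutative when `Γ G 3 = ⊥`). -/
def A2 (_hG : Γ G 3 = ⊥) : Type v := ↥(Γ G 1)

variable {hG : Γ G 3 = ⊥}

noncomputable instance : CommGroup (A2 hG) :=
  { (inferInstance : Group ↥(Γ G 1)) with
    mul_comm := fun a b => Subtype.ext (two_comm hG a.2 b.2) }

instance [Finite G] : Finite (A2 hG) := inferInstanceAs (Finite ↥(Γ G 1))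

/-- The underlying element of the group. -/
def A2.val (c : A2 hG) : G := Subtype.val c

theorem A2.mem (c : A2 hG) : A2.val c ∈ Γ G 1 := c.2

@[simp] theorem A2.val_mul (c c' : A2 hG) : A2.val (c * c') = A2.val c * A2.val c' := rfl

@[simp] theorem A2.val_one : A2.val (1 : A2 hG) = 1 := rfl

theorem A2.ext {c c' : A2 hG} (h : A2.val c = A2.val c') : c = c' := Subtype.ext h

variable (hG)

/-- The endomorphism `c ↦ c⁻¹ y⁻¹ c y` of the commutative group. -/
def T (y : G) : A2 hG →* A2 hG where
  toFun c := ⟨rc (A2.val c) y, lcs_two_le (rc_mem_three (A2.mem c) y)⟩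
  map_one' := by
    apply A2.ext
    change rc (A2.val (1 : A2 hG)) y = A2.val (1 : A2 hG)
    rw [A2.val_one]
    simp [rc]
  map_mul' a b := by
    apply A2.ext
    exact rc_mul_left hG (A2.mem a) y

/-- The commutator as an element of the commutative group. -/
def R (x y : G) : A2 hG := ⟨rc x y, rc_mem_two x y⟩

variable {hG}

@[simp] theorem T_val (y : G) (c : A2 hG) : A2.val (T hG y c) = rc (A2.val c) y := rfl

@[simp] theorem R_val (x y : G) : A2.val (R hG x y) = rc x y := rfl

theorem T_mul (y y' : G) (c : A2 hG) : T hG (y * y') c = T hG y c * T hG y' c := by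
  apply A2.ext
  exact rc_mul_right hG (A2.mem c) y y'

theorem T_one (c : A2 hG) : T hG 1 c = 1 := by
  apply A2.ext
  exact rc_one_right _

theorem T_pow (y : G) (n : ℕ) (c : A2 hG) : T hG (y ^ n) c = (T hG y c) ^ n := by
  induction n with
  | zero => simpa using T_one c
  | succ n ih => rw [pow_succ, T_mul, ih, pow_succ]

theorem T_kill (y y' : G) (c : A2 hG) : T hG y (T hG y' c) = 1 := by
  apply A2.ext
  exact rc_central hG (rc_mem_three (A2.mem c) y') y

theorem R_mul (u v g : G) :
    R hG (u * v) g = R hG u g * T hG v (R hG u g) * R hG v g := by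
  apply A2.ext
  simp only [A2.val_mul, R_val, T_val]
  rw [← mul_rc]
  simp [rc, mul_assoc]

theorem R_one (g : G) : R hG 1 g = 1 := by
  apply A2.ext
  simp [rc]

theorem R_pow (g h : G) (n : ℕ) :
    R hG (g ^ n) h = (R hG g h) ^ n * (T hG g (R hG g h)) ^ (n.choose 2) := by
  induction n with
  | zero => simpa using R_one h
  | succ n ih =>
    have hch : (n + 1).choose 2 = n.choose 2 + n := by
      have := Nat.choose_succ_succ n 1
      simp only [Nat.choose_one_right] at this
      change (n + 1).choose 2 = n + n.choose 2 at this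
      omega
    rw [pow_succ g n, R_mul, ih, map_mul, map_pow, map_pow, T_kill, one_pow, mul_one, hch,
      pow_succ (R hG g h) n, pow_add]
    simp only [mul_assoc, mul_left_comm, mul_comm]

variable {α : Type u}

/-- The ordered product of powers of the generators. -/
def C (ρ : α → G) (L : List α) (x : α → ℕ) : G := (L.map fun i => ρ i ^ x i).prod

@[simp] theorem C_nil (ρ : α → G) (x : α → ℕ) : C ρ [] x = 1 := rfl

@[simp] theorem C_cons (ρ : α → G) (i : α) (L : List α) (x : α → ℕ) :
    C ρ (i :: L) x = ρ i ^ x i * C ρ L x := by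
  simp [C]

theorem C_append (ρ : α → G) (L L' : List α) (x : α → ℕ) :
    C ρ (L ++ L') x = C ρ L x * C ρ L' x := by
  simp [C]

theorem C_congr (ρ : α → G) (L : List α) {x x' : α → ℕ} (h : ∀ i ∈ L, x i = x' i) :
    C ρ L x = C ρ L x' := by
  unfold C
  congr 1
  apply List.map_congr_left
  intro i hi
  rw [h i hi]

theorem T_list (ρ : α → G) (L : List α) (x : α → ℕ) (c : A2 hG) :
    T hG (C ρ L x) c = (L.map fun k => (T hG (ρ k) c) ^ x k).prod := by
  induction L with
  | nil => simpa using T_one c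
  | cons k L ih =>
    rw [C_cons, T_mul, T_pow, ih]
    simp

/-- The family of endomorphisms attached to the generators. -/
def τ (ρ : α → G) (hG : Γ G 3 = ⊥) : α → A2 hG →* A2 hG := fun b => T hG (ρ b)

theorem XF_quad (ρ : α → G) (c : A2 hG) {a i : α} (hia : i ≠ a) (L : List α) (ha : a ∉ L)
    (hi : i ∉ L) :
    XF (τ ρ hG) a (fun x => ((L.map fun k => (T hG (ρ k) c) ^ x k).prod) ^ x i) := by
  induction L with
  | nil => exact XF.one.congr fun x => by simp
  | cons k L ih =>
    have hka : k ≠ a := fun h => ha (by simp [h])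
    have hki : k ≠ i := fun h => hi (by simp [h])
    have h1 := ih (fun h => ha (by simp [h])) (fun h => hi (by simp [h]))
    have h2 : XF (τ ρ hG) a (fun x => (T hG (ρ k) c) ^ (x k * x i)) :=
      XF.qua _ (fun b => T_kill _ _ _) k i hka hia hki
    refine (h2.mul h1).congr fun x => ?_
    simp [mul_pow, pow_mul]

theorem XF_R (ρ : α → G) {a : α} (L : List α) (ha : a ∉ L) (hL : L.Nodup) :
    XF (τ ρ hG) a (fun x => R hG (C ρ L x) (ρ a)) := by
  induction L with
  | nil => exact XF.one.congr fun x => by simpa using R_one _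
  | cons i L ih =>
    have hia : i ≠ a := fun h => ha (by simp [h])
    have hiL : i ∉ L := (List.nodup_cons.mp hL).1
    have h1 := ih (fun h => ha (by simp [h])) (List.nodup_cons.mp hL).2
    let c : A2 hG := R hG (ρ i) (ρ a)
    have h2 : XF (τ ρ hG) a (fun x => c ^ x i) := XF.lin _ _ hia
    have h3 : XF (τ ρ hG) a (fun x => (T hG (ρ i) c) ^ (x i).choose 2) :=
      XF.bin _ (fun b => T_kill _ _ _) _ hia
    have h4 := XF_quad (hG := hG) ρ c hia L (fun h => ha (by simp [h])) hiL
    refine (((h2.mul h3).mul h4).mul h1).congr fun x => ?_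
    rw [C_cons, R_mul, R_pow]
    congr 1
    have hk : T hG (C ρ L x) (T hG (ρ i) c) = 1 := by
      apply A2.ext
      exact rc_central hG (rc_mem_three (A2.mem c) (ρ i)) _
    rw [map_mul, map_pow, map_pow, hk, one_pow, mul_one, T_list]

variable [Finite α]

/-- Auxiliary recursion on the reversed word. -/
noncomputable def betaR (ρ : α → G) (η : α → (α → ℕ) → A2 hG) : List α → A2 hG
  | [] => 1
  | a :: r => η a (cv r.reverse) * betaR ρ η r * τ ρ hG a (betaR ρ η r)

omit [Finite α] in
theorem C_Known [Finite G] [Finite α] (ρ : α → G) (L : List α) :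
    Known (fun w => C ρ L (cv w)) := by
  induction L with
  | nil => simpa using Known.const (1 : G)
  | cons i L ih =>
    simp only [C_cons]
    have h1 : Known (fun w => ρ i ^ (cv w) i) := Kn.pow_known (cnt1_Kn i) (ρ i)
    exact h1.map₂ ih (fun a b => a * b)

omit [Finite α] in
theorem cv_snoc_ne (w : List α) {a i : α} (h : i ≠ a) : cv (w ++ [a]) i = cv w i := by
  simp [cv, cnt1_snoc, h.symm]

omit [Finite α] in
theorem cv_snoc_self (w : List α) (a : α) : cv (w ++ [a]) a = cv w a + 1 := by
  simp [cv, cnt1_snoc]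

/-- Main theorem of this file: the word map to a finite group of class at most three is known. -/
theorem known_of_class_three [Finite G] (hG : Γ G 3 = ⊥) (ρ : α → G) (φ : List α → G) (hφ0 : φ [] = 1)
    (hφ : ∀ w a, φ (w ++ [a]) = φ w * ρ a) : Known φ := by
  classical
  cases nonempty_fintype α
  let L : List α := Finset.univ.toList
  have hLnd : L.Nodup := Finset.nodup_toList _
  have hLm : ∀ a, a ∈ L := fun a => Finset.mem_toList.mpr (Finset.mem_univ a)
  have hsplit : ∀ a, ∃ L1 L2, L = L1 ++ a :: L2 := fun a => List.append_of_mem (hLm a)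
  choose L1 L2 hL12 using hsplit
  have hnd : ∀ a, (L1 a ++ a :: L2 a).Nodup := fun a => by rw [← hL12 a]; exact hLnd
  have ha1 : ∀ a, a ∉ L1 a := fun a h => by
    have := hnd a
    rw [List.nodup_append] at this
    exact this.2.2 a h a (by simp) rfl
  have ha2 : ∀ a, a ∉ L2 a := fun a => by
    have := (hnd a)
    rw [List.nodup_append] at this
    exact (List.nodup_cons.mp this.2.1).1
  have hnd2 : ∀ a, (L2 a).Nodup := fun a => by
    have := (hnd a)
    rw [List.nodup_append] at this
    exact (List.nodup_cons.mp this.2.1).2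
  let η : α → (α → ℕ) → A2 hG := fun a x => R hG (C ρ (L2 a) x) (ρ a)
  have hη : ∀ a, XF (τ ρ hG) a (η a) := fun a => XF_R ρ (L2 a) (ha2 a) (hnd2 a)
  let β : List α → A2 hG := fun w => betaR ρ η w.reverse
  have hβ0 : β [] = 1 := rfl
  have hβrec : ∀ w a, β (w ++ [a]) = η a (cv w) * β w * τ ρ hG a (β w) := by
    intro w a
    simp [β, betaR]
  have hβk : Known β := known_of_rec (τ ρ hG) (fun a b y => T_kill _ _ _) η hη β hβ0 hβrec
  have hP : ∀ w a, C ρ L (cv w) * ρ a = C ρ L (cv (w ++ [a])) * A2.val (η a (cv w)) := by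
    intro w a
    have h1 : C ρ L (cv w) = C ρ (L1 a) (cv w) * (ρ a ^ cv w a * C ρ (L2 a) (cv w)) := by
      rw [hL12 a, C_append, C_cons]
    have h2 : C ρ L (cv (w ++ [a])) =
        C ρ (L1 a) (cv w) * (ρ a ^ (cv w a + 1) * C ρ (L2 a) (cv w)) := by
      rw [hL12 a, C_append, C_cons, cv_snoc_self,
        C_congr ρ (L1 a) (fun i hi => cv_snoc_ne w (a := a) (i := i) (fun h => ha1 a (h ▸ hi))),
        C_congr ρ (L2 a) (fun i hi => cv_snoc_ne w (a := a) (i := i) (fun h => ha2 a (h ▸ hi)))]
    rw [h1, h2]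
    simp only [η, R_val, rc, pow_succ]
    group
  have hNF : ∀ w, φ w = C ρ L (cv w) * A2.val (β w) := by
    intro w
    induction w using List.reverseRecOn with
    | nil =>
      rw [hφ0, hβ0, A2.val_one, mul_one]
      have : cv ([] : List α) = fun _ => 0 := rfl
      rw [this]
      simp [C]
    | append_singleton w a ih =>
      rw [hφ, ih, hβrec]
      have h3 : A2.val (β w) * ρ a = ρ a * (A2.val (β w) * A2.val (τ ρ hG a (β w))) := by
        have := mul_rc (A2.val (β w)) (ρ a)
        change (ρ a)⁻¹ * A2.val (β w) * ρ a = A2.val (β w) * A2.val (τ ρ hG a (β w)) at this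
        rw [← this]
        group
      rw [mul_assoc, h3, ← mul_assoc, hP]
      simp only [A2.val_mul, mul_assoc]
  have := (C_Known ρ L).map₂ (hβk.comp A2.val) (fun a b => a * b)
  convert this using 2 with w
  exact hNF w

end Main

end Vale.Agent.Lib.P329.H26
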