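import Vale.Agent.Lib.P329.H26.Chain

/-!
# Subword counts of length at most three modulo any integer
-/

namespace Vale.Agent.Lib.P329.H26

open Classical

universe u

variable {α : Type u}

/-- The number of occurrences of a letter, as a clock. -/
noncomputable def cnt1 (a : α) (w : List α) : ℕ := clock {a} w

/-- The number of subword occurrences of `a b`. -/
noncomputable def S2 (a b : α) (w : List α) : ℕ := psum (cnt1 a) b w

theorem clock_snoc (D : Set α) (w : List α) (a : α) :
    clock D (w ++ [a]) = clock D w + if a ∈ D then 1 else 0 := by
  rw [clock_append]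
  simp [clock]

theorem cnt1_snoc (a : α) (w : List α) (b : α) :
    cnt1 a (w ++ [b]) = cnt1 a w + if b = a then 1 else 0 := by
  simp [cnt1, clock_snoc]

@[simp] theorem cnt1_nil (a : α) : cnt1 a [] = 0 := rfl

theorem S2_snoc (a b : α) (w : List α) (c : α) :
    S2 a b (w ++ [c]) = S2 a b w + if c = b then cnt1 a w else 0 := by
  simp [S2, psum_snoc]

@[simp] theorem S2_nil (a b : α) : S2 a b [] = 0 := rfl

theorem cnt1_Kn [Finite α] (a : α) : Kn (cnt1 a) := clock_Kn {a}

theorem choose_add_two (x k : ℕ) : (x + k).choose 2 = x.choose 2 + k * x + k.choose 2 := by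
  induction k with
  | zero => simp
  | succ k ih =>
    rw [← Nat.add_assoc, Nat.choose_succ_succ' (x + k) 1, ih, Nat.choose_succ_succ' k 1]
    simp only [Nat.choose_one_right]
    ring

theorem choose_period (n x : ℕ) : (((x + 2 * n).choose 2 : ℕ) : ZMod n) = (x.choose 2 : ℕ) := by
  rw [choose_add_two]
  have h : (2 * n).choose 2 = n * (2 * n - 1) := by
    rw [Nat.choose_two_right]
    cases n with
    | zero => simp
    | succ m =>
      have : (2 * (m + 1)) * (2 * (m + 1) - 1) = 2 * ((m + 1) * (2 * (m + 1) - 1)) := by ring
      rw [this, Nat.mul_div_cancel_left _ (by norm_num)]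
  rw [h]
  push_cast
  simp

/-- Weighted count with weight `x` on a single letter clock: the subword count `a b`. -/
theorem S2_Kn [Finite α] {a b : α} (hab : a ≠ b) : Kn (S2 a b) := by
  have hc : b ∉ ({a} : Set α) := by simpa using hab.symm
  exact psum_clock_Kn (v := id) hc (fun n hn => ⟨n, hn, fun x => by simp⟩)

/-- `psum` of a binomial in a clock. -/
theorem psum_choose_Kn [Finite α] {D : Set α} {c : α} (hc : c ∉ D) :
    Kn (psum (fun u => (clock D u).choose 2) c) :=
  psum_clock_Kn (v := fun x => x.choose 2) hc
    (fun n hn => ⟨2 * n, by omega, fun x => choose_period n x⟩)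

theorem psum_add (e f : List α → ℕ) (c : α) (w : List α) :
    psum (fun u => e u + f u) c w = psum e c w + psum f c w := by
  induction w using List.reverseRecOn with
  | nil => simp
  | append_singleton w a ih =>
    simp only [psum_snoc, ih]
    split_ifs <;> omega

theorem clock_pair {i k : α} (hik : i ≠ k) (w : List α) :
    clock {i, k} w = cnt1 i w + cnt1 k w := by
  induction w with
  | nil => rfl
  | cons a w ih =>
    simp only [clock, cnt1] at ih ⊢
    rw [ih]
    by_cases h1 : a = i
    · subst h1
      simp [hik]
      omega
    · by_cases h2 : a = k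
      · subst h2
        simp [h1]
        omega
      · simp [h1, h2]

/-- The weight `x_i x_k` at a third letter. -/
theorem psum_mul_Kn [Finite α] {i k c : α} (hik : i ≠ k) (hi : i ≠ c) (hk : k ≠ c) :
    Kn (psum (fun u => cnt1 i u * cnt1 k u) c) := by
  have h1 : Kn (psum (fun u => (clock {i, k} u).choose 2) c) := by
    apply psum_choose_Kn
    simp [hi.symm, hk.symm]
  have h2 : Kn (psum (fun u => (clock {i} u).choose 2) c) := by
    apply psum_choose_Kn
    simp [hi.symm]
  have h3 : Kn (psum (fun u => (clock {k} u).choose 2) c) := by
    apply psum_choose_Kn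
    simp [hk.symm]
  have h4 : (fun w => psum (fun u => (clock {i, k} u).choose 2) c w) = fun w =>
      (psum (fun u => (clock {i} u).choose 2) c w + psum (fun u => (clock {k} u).choose 2) c w) +
        psum (fun u => cnt1 i u * cnt1 k u) c w := by
    funext w
    rw [← psum_add, ← psum_add]
    congr 1
    funext u
    rw [clock_pair hik, choose_add_two]
    simp only [cnt1]
    ring
  rw [show (psum (fun u => (clock {i, k} u).choose 2) c) =
    (fun w => psum (fun u => (clock {i, k} u).choose 2) c w) from rfl, h4] at h1
  exact Kn.of_add_right h1 (h2.add h3)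

theorem two_choose_add (x : ℕ) : 2 * x.choose 2 + x = x * x := by
  induction x with
  | zero => simp
  | succ k ih =>
    rw [Nat.choose_succ_succ' k 1, Nat.choose_one_right]
    nlinarith

/-- The shuffle identity for two distinct letters. -/
theorem mul_cnt1 {i j : α} (hij : i ≠ j) (w : List α) :
    cnt1 i w * cnt1 j w = S2 i j w + S2 j i w := by
  induction w using List.reverseRecOn with
  | nil => simp
  | append_singleton w a ih =>
    simp only [cnt1_snoc, S2_snoc]
    by_cases h1 : a = i
    · subst h1
      simp only [hij, if_true, if_false, Nat.add_zero]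
      nlinarith
    · by_cases h2 : a = j
      · subst h2
        simp only [h1, if_true, if_false, Nat.add_zero]
        nlinarith
      · simp only [h1, h2, if_false, Nat.add_zero]
        nlinarith

/-- Identity for a third letter. -/
theorem identity_third {i j l : α} (hli : l ≠ i) (hlj : l ≠ j) (w : List α) :
    cnt1 l w * S2 i j w = psum (fun u => cnt1 l u * cnt1 i u) j w + psum (S2 i j) l w := by
  induction w using List.reverseRecOn with
  | nil => simp [S2, psum, psumAux]
  | append_singleton w a ih =>
    simp only [cnt1_snoc, S2_snoc, psum_snoc]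
    by_cases h1 : a = l
    · subst h1
      simp only [hlj, if_true, if_false, Nat.add_zero]
      nlinarith
    · by_cases h2 : a = j
      · subst h2
        simp only [h1, if_true, if_false, Nat.add_zero]
        nlinarith
      · simp only [h1, h2, if_false, Nat.add_zero]
        nlinarith

/-- Identity for the first letter repeated at the end. -/
theorem identity_first {i j : α} (hij : i ≠ j) (w : List α) :
    cnt1 i w * S2 i j w =
      2 * psum (fun u => (cnt1 i u).choose 2) j w + psum (S2 i j) i w + S2 i j w := by
  induction w using List.reverseRecOn with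
  | nil => simp [S2, psum, psumAux]
  | append_singleton w a ih =>
    simp only [cnt1_snoc, S2_snoc, psum_snoc]
    by_cases h1 : a = i
    · subst h1
      simp only [hij, if_true, if_false, Nat.add_zero]
      nlinarith
    · by_cases h2 : a = j
      · subst h2
        have := two_choose_add (cnt1 i w)
        simp only [h1, if_true, if_false, Nat.add_zero]
        nlinarith
      · simp only [h1, h2, if_false, Nat.add_zero]
        nlinarith

/-- Identity for the last letter repeated at the end. -/
theorem identity_last {i j : α} (hij : i ≠ j) (w : List α) :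
    cnt1 j w * S2 i j w = psum (S2 j i) j w + 2 * psum (S2 i j) j w + S2 i j w := by
  induction w using List.reverseRecOn with
  | nil => simp [S2, psum, psumAux]
  | append_singleton w a ih =>
    simp only [cnt1_snoc, S2_snoc, psum_snoc]
    by_cases h2 : a = j
    · subst h2
      have := mul_cnt1 hij w
      simp only [if_true, Nat.add_zero]
      nlinarith
    · simp only [h2, if_false, Nat.add_zero]
      nlinarith

/-- Subword counts `i i j`. -/
theorem S3_iij_Kn [Finite α] {i j : α} (hij : i ≠ j) :
    Kn (psum (fun u => (cnt1 i u).choose 2) j) := by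
  apply psum_choose_Kn
  simpa using hij.symm

/-- Subword counts `i j l` for `i ≠ j` and any `l`. -/
theorem S3_Kn [Finite α] {i j : α} (hij : i ≠ j) (l : α) : Kn (psum (S2 i j) l) := by
  have hS : Kn (S2 i j) := S2_Kn hij
  have hfirst : ∀ {i j : α}, i ≠ j → Kn (psum (S2 i j) i) := by
    intro i j hij
    have hS : Kn (S2 i j) := S2_Kn hij
    have h1 : Kn (fun w => cnt1 i w * S2 i j w) := (cnt1_Kn i).mul hS
    have h2 : (fun w => cnt1 i w * S2 i j w) = fun w =>
        (2 * psum (fun u => (cnt1 i u).choose 2) j w + S2 i j w) + psum (S2 i j) i w := by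
      funext w
      rw [identity_first hij]
      ring
    rw [h2] at h1
    have h3 : Kn (fun w => 2 * psum (fun u => (cnt1 i u).choose 2) j w + S2 i j w) := by
      refine Kn.add ?_ hS
      have : Kn (fun _ : List α => 2) := fun n hn => Known.const _
      exact this.mul (S3_iij_Kn hij)
    exact Kn.of_add_right h1 h3
  by_cases hli : l = i
  · subst hli
    exact hfirst hij
  by_cases hlj : l = j
  · subst hlj
    have h1 : Kn (fun w => cnt1 l w * S2 i l w) := (cnt1_Kn l).mul hS
    have h2 : (fun w => cnt1 l w * S2 i l w) = fun w =>
        (psum (S2 l i) l w + S2 i l w) + 2 * psum (S2 i l) l w := by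
      funext w
      rw [identity_last hij]
      ring
    rw [h2] at h1
    have h3 : Kn (fun w => psum (S2 l i) l w + S2 i l w) := (hfirst hij.symm).add hS
    exact Kn.of_two_mul (Kn.of_add_right h1 h3)
  · have h1 : Kn (fun w => cnt1 l w * S2 i j w) := (cnt1_Kn l).mul hS
    have h2 : (fun w => cnt1 l w * S2 i j w) = fun w =>
        psum (fun u => cnt1 l u * cnt1 i u) j w + psum (S2 i j) l w := by
      funext w
      rw [identity_third hli hlj]
    rw [h2] at h1
    exact Kn.of_add_right h1 (psum_mul_Kn hli hlj hij)

end Vale.Agent.Lib.P329.H26
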